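import Mathlib
import Vale.Agent.Lib.P254.Vertices7

/-! The strong isotropic constant conjecture holds for all polytopes with at most `n + 2` vertices,
with an exact formula for their isotropic constants. -/

open Vale.Agent.Lib.P254

namespace Vale.Agent.Results.P254.B_vertices

theorem result {n : ℕ} (hn : 1 ≤ n) :
    (∀ (u : Fin (n+2) → (Fin n → ℝ)) (T : Set (Fin n → ℝ)),
      (interior (convexHull ℝ (Set.range u))).Nonempty → IsSimplex T →
        isoConst (convexHull ℝ (Set.range u)) ≤ isoConst T ∧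
        (isoConst (convexHull ℝ (Set.range u)) = isoConst T →
          IsSimplex (convexHull ℝ (Set.range u)))) ∧
    (∀ (v : Fin (n+1) → (Fin n → ℝ)) (b : Fin (n+1) → ℝ) (P T : Set (Fin n → ℝ)) (w A B : ℝ),
      AffineIndependent ℝ v → ∑ i, b i = 1 →
      P = convexHull ℝ (insert (∑ i, b i • v i) (Set.range v)) → T = convexHull ℝ (Set.range v) →
      w = ∑ i, max (b i) 0 → A = (∑ i, (max (b i) 0) ^ 2) / w ^ 2 →
      B = (1 + ∑ i, (max (-(b i)) 0) ^ 2) / w ^ 2 →
      vol P = w * vol T ∧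
        (covMat P).det / vol P ^ 2 = (covMat T).det / vol T ^ 2 * (1 - (1 - A) * (1 - B))) := by
  refine ⟨fun u T hint hT => hull_n_plus_two hn u hint hT, ?_⟩
  intro v b P T w A B hv hb hP hT hw hA hB
  obtain ⟨h1, h2, _, _⟩ := vertices_main hn v hv b hb
  rw [← hP, ← hT, ← hw] at h1
  rw [← hP, ← hT, ← hw, ← hA, ← hB] at h2
  refine ⟨h1, ?_⟩
  rw [h2]
  ring

end Vale.Agent.Results.P254.B_vertices
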