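import Vale.Agent.Results.P254.A_local
import Vale.Agent.Results.P254.B_vertices

/-!
The simplex minimises the isotropic constant locally and among polytopes with `n + 2` vertices, with
the exact formula for these polytopes.
-/

open Vale.Agent.Lib.P254

namespace Vale.Agent.Results.P254.A0_master

/-- The local bound and the `n + 2` vertex bound together. -/
theorem result :
    (∀ n : ℕ, 2 ≤ n → ∀ K S T : Set (Fin n → ℝ), IsCompact K → Convex ℝ K →
      (interior K).Nonempty → IsSimplex S → IsSimplex T → K ⊆ S →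
      (1 - 1 / (2 * ((n:ℝ) + 3) ^ (5 * n))) * vol S ≤ vol K →
      isoConst K ≤ isoConst T ∧ (isoConst K = isoConst T → IsSimplex K)) ∧
    (∀ n : ℕ, 1 ≤ n →
      (∀ (u : Fin (n+2) → (Fin n → ℝ)) (T : Set (Fin n → ℝ)),
        (interior (convexHull ℝ (Set.range u))).Nonempty → IsSimplex T →
          isoConst (convexHull ℝ (Set.range u)) ≤ isoConst T ∧
          (isoConst (convexHull ℝ (Set.range u)) = isoConst T →
            IsSimplex (convexHull ℝ (Set.range u)))) ∧
      (∀ (v : Fin (n+1) → (Fin n → ℝ)) (b : Fin (n+1) → ℝ) (P T : Set (Fin n → ℝ)) (w A B : ℝ),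
        AffineIndependent ℝ v → ∑ i, b i = 1 →
        P = convexHull ℝ (insert (∑ i, b i • v i) (Set.range v)) → T = convexHull ℝ (Set.range v) →
        w = ∑ i, max (b i) 0 → A = (∑ i, (max (b i) 0) ^ 2) / w ^ 2 →
        B = (1 + ∑ i, (max (-(b i)) 0) ^ 2) / w ^ 2 →
        vol P = w * vol T ∧
          (covMat P).det / vol P ^ 2 = (covMat T).det / vol T ^ 2 * (1 - (1 - A) * (1 - B)))) :=
  ⟨fun _ hn _ _ _ hK hconv hint hS hT hKS hvol =>
      Vale.Agent.Results.P254.A_local.result hn hK hconv hint hS hT hKS hvol,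
    fun _ hn => Vale.Agent.Results.P254.B_vertices.result hn⟩

end Vale.Agent.Results.P254.A0_master
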