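import Mathlib
import Vale.Agent.Lib.P254.Final

/-! The simplex is a strict local maximizer of the isotropic constant, with an explicit radius:
a convex body filling a simplex up to an explicit volume fraction satisfies the strong isotropic
constant conjecture, with equality only for simplices. -/

open Vale.Agent.Lib.P254

namespace Vale.Agent.Results.P254.A_local

theorem result {n : ℕ} (hn : 2 ≤ n) {K S T : Set (Fin n → ℝ)} (hK : IsCompact K)
    (hconv : Convex ℝ K) (hint : (interior K).Nonempty) (hS : IsSimplex S) (hT : IsSimplex T)
    (hKS : K ⊆ S) (hvol : (1 - 1 / (2 * ((n:ℝ) + 3) ^ (5 * n))) * vol S ≤ vol K) :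
    isoConst K ≤ isoConst T ∧ (isoConst K = isoConst T → IsSimplex K) :=
  local_max hn hK hconv hint hS hT hKS hvol

end Vale.Agent.Results.P254.A_local
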